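import Mathlib

namespace Vale.Agent.Lib.P295

open MvPolynomial

/-- `f` is a coordinate of the polynomial ring `ℂ[x_i : i ∈ σ]`: it is the image of a variable
under a `ℂ`-algebra automorphism of that ring. -/
def IsCoordinate {σ : Type} (f : MvPolynomial σ ℂ) : Prop :=
  ∃ (φ : MvPolynomial σ ℂ ≃ₐ[ℂ] MvPolynomial σ ℂ) (i : σ), φ (X i) = f

/-- `f ∈ ℂ[x_1, …, x_n]` is a stable coordinate: for some `m ≥ 1` it is a coordinate of the
polynomial ring in the `n + m` variables indexed by `Fin n ⊕ Fin m`. -/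
def IsStableCoordinate {n : ℕ} (f : MvPolynomial (Fin n) ℂ) : Prop :=
  ∃ m : ℕ, 1 ≤ m ∧ IsCoordinate (rename (Sum.inl : Fin n → Fin n ⊕ Fin m) f)

end Vale.Agent.Lib.P295
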