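import Mathlib
import Vale.Agent.Lib.P295.Defs

namespace Vale.Agent.Lib.P295

open MvPolynomial

theorem chain_rule {σ : Type} [Fintype σ] {B : Type} [CommRing B] [Algebra ℂ B]
    (D : Derivation ℂ B B) (g : MvPolynomial σ ℂ →ₐ[ℂ] B) (f : MvPolynomial σ ℂ) :
    D (g f) = ∑ i, g (pderiv i f) * D (g (X i)) := by
  classical
  induction f using MvPolynomial.induction_on with
  | C a =>
    have : g (C a) = algebraMap ℂ B a := by
      rw [← MvPolynomial.algebraMap_eq]; exact g.commutes a
    simp [this]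
  | add p q hp hq => simp [hp, hq, add_mul, Finset.sum_add_distrib]
  | mul_X p k hp =>
    have h1 : ∀ i, g (pderiv i (p * X k)) * D (g (X i)) =
        g p * (g ((Pi.single i 1 : σ → MvPolynomial σ ℂ) k) * D (g (X i))) + g (X k) * (g (pderiv i p) * D (g (X i))) := by
      intro i
      rw [Derivation.leibniz, pderiv_X]
      simp only [smul_eq_mul, map_add, map_mul]
      ring
    simp only [h1, Finset.sum_add_distrib, ← Finset.mul_sum, ← hp]
    rw [map_mul, Derivation.leibniz]
    have h2 : ∑ i, g ((Pi.single i 1 : σ → MvPolynomial σ ℂ) k) * D (g (X i)) = D (g (X k)) := by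
      rw [Finset.sum_eq_single k]
      · simp
      · intro b _ hb
        simp [Ne.symm hb]
      · intro h; exact absurd (Finset.mem_univ k) h
    rw [h2]
    simp only [smul_eq_mul]


theorem coordinate_no_crit {σ : Type} [Fintype σ] (f : MvPolynomial σ ℂ) (hf : IsCoordinate f)
    (a : σ → ℂ) : ∃ j, aeval a (pderiv j f) ≠ (0 : ℂ) := by
  classical
  obtain ⟨φ, i0, hφ⟩ := hf
  by_contra hcon
  push Not at hcon
  have hcomp : ∀ h : MvPolynomial σ ℂ,
      aeval (fun k => aeval a (φ (X k))) h = aeval a (φ h) := by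
    intro h
    have : (aeval (fun k => aeval a (φ (X k))) : MvPolynomial σ ℂ →ₐ[ℂ] ℂ) =
        (aeval a).comp (φ : MvPolynomial σ ℂ →ₐ[ℂ] MvPolynomial σ ℂ) := by
      apply MvPolynomial.algHom_ext
      intro k
      simp
    rw [this]; rfl
  have hch := chain_rule (pderiv i0) (φ.symm : MvPolynomial σ ℂ →ₐ[ℂ] MvPolynomial σ ℂ) f
  have hsymm : φ.symm f = X i0 := by rw [← hφ]; simp
  simp only [AlgEquiv.coe_toAlgHom] at hch
  rw [hsymm, pderiv_X_self] at hch
  have h1 := congrArg (aeval (fun k => aeval a (φ (X k)))) hch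
  rw [map_one, map_sum] at h1
  have hz : ∀ i, aeval (fun k => aeval a (φ (X k)))
      (φ.symm (pderiv i f) * pderiv i0 (φ.symm (X i))) = (0 : ℂ) := by
    intro i
    rw [map_mul, hcomp, AlgEquiv.apply_symm_apply, hcon i, zero_mul]
  rw [Finset.sum_congr rfl (fun i _ => hz i), Finset.sum_const_zero] at h1
  exact one_ne_zero h1

theorem stable_no_crit {n : ℕ} (f : MvPolynomial (Fin n) ℂ) (hf : IsStableCoordinate f)
    (a : Fin n → ℂ) : ∃ j, aeval a (pderiv j f) ≠ (0 : ℂ) := by
  classical
  obtain ⟨m, -, hm⟩ := hf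
  obtain ⟨j', hj'⟩ := coordinate_no_crit _ hm (Sum.elim a (fun _ => 0))
  rcases j' with j | k
  · refine ⟨j, ?_⟩
    rw [pderiv_rename Sum.inl_injective, aeval_rename] at hj'
    simpa using hj'
  · exfalso
    apply hj'
    rw [pderiv_eq_zero_of_notMem_vars, map_zero]
    intro hk
    have := vars_rename (Sum.inl : Fin n → Fin n ⊕ Fin m) f hk
    simp at this

end Vale.Agent.Lib.P295
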