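import Mathlib
import Vale.Agent.Lib.P295.Chain

namespace Vale.Agent.Lib.P295

open MvPolynomial

theorem affine_scalar {σ : Type} [Fintype σ] (f : MvPolynomial σ ℂ) (v : σ → ℂ)
    (hv : ∑ j, v j • pderiv j f = 1) (y : σ → ℂ) (t : ℂ) :
    eval (fun i => y i + v i * t) f = eval y f + t := by
  classical
  obtain ⟨g, hg⟩ : ∃ g : MvPolynomial σ ℂ →ₐ[ℂ] Polynomial ℂ,
      g = aeval (fun i => Polynomial.C (y i) + Polynomial.C (v i) * Polynomial.X) := ⟨_, rfl⟩
  have hder : Polynomial.derivative (g f) = 1 := by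
    have h := chain_rule (Polynomial.derivative' : Derivation ℂ (Polynomial ℂ) (Polynomial ℂ)) g f
    have h2 : ∀ i, Polynomial.derivative' (g (X i)) = Polynomial.C (v i) := by
      intro i
      simp [hg]
    simp only [h2] at h
    have h3 : ∑ i, g (pderiv i f) * Polynomial.C (v i) = g (∑ i, v i • pderiv i f) := by
      rw [map_sum]
      apply Finset.sum_congr rfl
      intro i _
      rw [map_smul, Algebra.smul_def, mul_comm]; rfl
    rw [h3, hv, map_one] at h
    exact h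
  have hQ : Polynomial.derivative (g f - Polynomial.X) = 0 := by
    rw [Polynomial.derivative_sub, hder, Polynomial.derivative_X, sub_self]
  have hC := Polynomial.eq_C_of_derivative_eq_zero hQ
  have hP : g f = Polynomial.C ((g f - Polynomial.X).coeff 0) + Polynomial.X := by
    rw [← hC]; ring
  have hev : ∀ s : ℂ, Polynomial.eval s (g f) = eval (fun i => y i + v i * s) f := by
    intro s
    have : ((Polynomial.aeval s : Polynomial ℂ →ₐ[ℂ] ℂ).comp g) =
        aeval (fun i => y i + v i * s) := by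
      rw [hg, comp_aeval]
      congr 1
      funext i
      simp
    have h' := congrArg (fun φ : MvPolynomial σ ℂ →ₐ[ℂ] ℂ => φ f) this
    simpa [Polynomial.coe_aeval_eq_eval] using h'
  have e0 := hev 0
  have et := hev t
  rw [hP] at e0 et
  simp only [Polynomial.eval_add, Polynomial.eval_C, Polynomial.eval_X, mul_zero, add_zero]
    at e0 et
  rw [← et, ← e0]


theorem affine_poly {σ : Type} [Fintype σ] (f : MvPolynomial σ ℂ) (v : σ → ℂ)
    (hv : ∑ j, v j • pderiv j f = 1) (x : σ → MvPolynomial σ ℂ) (τ : MvPolynomial σ ℂ) :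
    aeval (fun i => x i + C (v i) * τ) f = aeval x f + τ := by
  apply MvPolynomial.funext
  intro p
  have key : ∀ x' : σ → MvPolynomial σ ℂ,
      eval p (aeval x' f) = eval (fun i => eval p (x' i)) f := by
    intro x'
    have : ((aeval p : MvPolynomial σ ℂ →ₐ[ℂ] ℂ).comp (aeval x')) =
        aeval (fun i => aeval p (x' i)) := comp_aeval _ _
    have h' := congrArg (fun φ : MvPolynomial σ ℂ →ₐ[ℂ] ℂ => φ f) this
    simpa [aeval_eq_eval] using h'
  rw [key, map_add, key]
  simp only [map_add, map_mul, eval_C]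
  exact affine_scalar f v hv _ _

theorem coordinate_of_direction {σ : Type} [Fintype σ] [DecidableEq σ]
    (f : MvPolynomial σ ℂ) (v : σ → ℂ)
    (hv : ∑ j, v j • pderiv j f = 1) : IsCoordinate f := by
  obtain ⟨j, hj⟩ : ∃ j, v j ≠ 0 := by
    by_contra hc
    push Not at hc
    simp [hc] at hv
  obtain ⟨x0, hx0⟩ : ∃ x0 : σ → MvPolynomial σ ℂ, x0 = fun i => if i = j then 0 else X i :=
    ⟨_, rfl⟩
  have hx0j : x0 j = 0 := by rw [hx0]; simp
  have hx0i : ∀ i, i ≠ j → x0 i = X i := by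
    intro i hi; rw [hx0]; simp [hi]
  obtain ⟨τ, hτ⟩ : ∃ τ : MvPolynomial σ ℂ, τ = X j - aeval x0 f := ⟨_, rfl⟩
  obtain ⟨ψ, hψ⟩ : ∃ ψ : MvPolynomial σ ℂ →ₐ[ℂ] MvPolynomial σ ℂ,
      ψ = aeval (fun i => x0 i + C (v i) * τ) := ⟨_, rfl⟩
  obtain ⟨φ, hφ⟩ : ∃ φ : MvPolynomial σ ℂ →ₐ[ℂ] MvPolynomial σ ℂ,
      φ = aeval (fun i => if i = j then f else X i - C (v i / v j) * X j) := ⟨_, rfl⟩
  have hφj : φ (X j) = f := by rw [hφ, aeval_X, if_pos rfl]
  have hφi : ∀ i, i ≠ j → φ (X i) = X i - C (v i / v j) * X j := by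
    intro i hi; rw [hφ, aeval_X, if_neg hi]
  have hψX : ∀ i, ψ (X i) = x0 i + C (v i) * τ := by
    intro i; rw [hψ, aeval_X]
  have hψC : ∀ a : ℂ, ψ (C a) = C a := by
    intro a; rw [hψ, aeval_C]; rfl
  have hφC : ∀ a : ℂ, φ (C a) = C a := by
    intro a; rw [hφ, aeval_C]; rfl
  have hinv : C (v j) * C (v j)⁻¹ = (1 : MvPolynomial σ ℂ) := by
    rw [← C_mul, mul_inv_cancel₀ hj, C_1]
  have hdiv : ∀ i, C (v i / v j) = C (v i) * (C (v j)⁻¹ : MvPolynomial σ ℂ) := by
    intro i
    rw [← C_mul, div_eq_mul_inv]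
  have hψφ : ψ.comp φ = AlgHom.id ℂ _ := by
    apply MvPolynomial.algHom_ext
    intro i
    rw [AlgHom.comp_apply, AlgHom.id_apply]
    by_cases hi : i = j
    · rw [hi, hφj, hψ, affine_poly f v hv, hτ]
      ring
    · rw [hφi i hi, map_sub, map_mul, hψX, hψX, hψC, hx0j, hx0i i hi, hdiv]
      linear_combination (-(C (v i)) * τ) * hinv
  have hφτ : φ τ = C (v j)⁻¹ * X j := by
    rw [hτ, map_sub, hφj]
    have h1 : φ (aeval x0 f) = aeval (fun i => φ (x0 i)) f := by
      have := comp_aeval (f := x0) φ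
      exact congrArg (fun χ : MvPolynomial σ ℂ →ₐ[ℂ] MvPolynomial σ ℂ => χ f) this
    have h2 : (fun i => φ (x0 i)) = fun i => X i + C (v i) * (-(C (v j)⁻¹ * X j)) := by
      funext i
      by_cases hi : i = j
      · rw [hi, hx0j, map_zero]
        linear_combination X j * hinv
      · rw [hx0i i hi, hφi i hi, hdiv]
        ring
    rw [h1, h2, affine_poly f v hv, aeval_X_left, AlgHom.id_apply]
    ring
  have hφψ : φ.comp ψ = AlgHom.id ℂ _ := by
    apply MvPolynomial.algHom_ext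
    intro i
    rw [AlgHom.comp_apply, AlgHom.id_apply, hψX, map_add, map_mul, hφC, hφτ]
    by_cases hi : i = j
    · rw [hi, hx0j, map_zero]
      linear_combination X j * hinv
    · rw [hx0i i hi, hφi i hi, hdiv]
      ring
  exact ⟨AlgEquiv.ofAlgHom φ ψ hφψ hψφ, j, hφj⟩

end Vale.Agent.Lib.P295
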