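import Mathlib
import Vale.Agent.Lib.P295.Chain

namespace Vale.Agent.Lib.P295

open MvPolynomial

theorem finsupp_deg_le_one {σ : Type} (m : σ →₀ ℕ) (h : (m.sum fun _ e => e) ≤ 1) :
    m = 0 ∨ ∃ k, m = Finsupp.single k 1 := by
  classical
  by_cases h0 : m = 0
  · exact Or.inl h0
  right
  obtain ⟨k, hk⟩ : ∃ k, m k ≠ 0 := by
    by_contra hc
    push Not at hc
    exact h0 (Finsupp.ext hc)
  refine ⟨k, ?_⟩
  have hsum : m.sum (fun _ e => e) = m k + ∑ i ∈ m.support.erase k, m i := by
    rw [Finsupp.sum, ← Finset.add_sum_erase _ _ (Finsupp.mem_support_iff.mpr hk)]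
  have hk1 : m k = 1 := by omega
  have hrest : ∑ i ∈ m.support.erase k, m i = 0 := by omega
  ext i
  by_cases hik : i = k
  · subst hik; simp [hk1]
  · rw [Finsupp.single_apply, if_neg (Ne.symm hik)]
    by_contra hne
    have hmem : i ∈ m.support.erase k :=
      Finset.mem_erase.mpr ⟨hik, Finsupp.mem_support_iff.mpr hne⟩
    have := Finset.sum_eq_zero_iff.mp hrest i hmem
    exact hne this

/-- a linear functional normalised by `ℓ 1 = 1` agrees with evaluation at the point
`(ℓ (X k))_k` on monomials of degree at most one -/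
theorem functional_monomial {σ : Type} (ℓ : MvPolynomial σ ℂ →ₗ[ℂ] ℂ) (h1 : ℓ 1 = 1)
    (m : σ →₀ ℕ) (hm : (m.sum fun _ e => e) ≤ 1) (c : ℂ) :
    ℓ (monomial m c) = eval (fun k => ℓ (X k)) (monomial m c) := by
  have hc : monomial m c = c • (monomial m (1:ℂ)) := by
    rw [smul_monomial]; simp
  rw [hc, map_smul, smul_eq_mul, smul_eval]
  congr 1
  rcases finsupp_deg_le_one m hm with h | ⟨k, h⟩
  · subst h
    have : (monomial (0 : σ →₀ ℕ) (1:ℂ)) = 1 := rfl
    rw [this, h1, map_one]
  · subst h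
    have : (monomial (Finsupp.single k 1) (1:ℂ)) = X k := rfl
    rw [this, eval_X]

theorem functional_pderiv {σ : Type} (ℓ : MvPolynomial σ ℂ →ₗ[ℂ] ℂ) (h1 : ℓ 1 = 1)
    (f : MvPolynomial σ ℂ) (hdeg : f.totalDegree ≤ 2) (j : σ) :
    ℓ (pderiv j f) = eval (fun k => ℓ (X k)) (pderiv j f) := by
  classical
  conv_lhs => rw [← support_sum_monomial_coeff f]
  conv_rhs => rw [← support_sum_monomial_coeff f]
  simp only [map_sum]
  apply Finset.sum_congr rfl
  intro m hm
  rw [pderiv_monomial]
  by_cases hmj : m j = 0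
  · simp [hmj]
  · apply functional_monomial ℓ h1
    have hle : (m.sum fun _ e => e) ≤ 2 := (le_totalDegree hm).trans hdeg
    have hsplit : m = (m - Finsupp.single j 1) + Finsupp.single j 1 := by
      ext i
      by_cases hij : i = j
      · subst hij
        simp only [Finsupp.coe_add, Finsupp.coe_tsub, Pi.add_apply, Pi.sub_apply,
          Finsupp.single_eq_same]
        omega
      · simp [Ne.symm hij]
    have hd : Finsupp.degree m = Finsupp.degree (m - Finsupp.single j 1) + 1 := by
      conv_lhs => rw [hsplit]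
      rw [map_add, Finsupp.degree_single]
    have e1 : (m.sum fun _ e => e) = Finsupp.degree m := rfl
    have e2 : ((m - Finsupp.single j 1).sum fun _ e => e) =
        Finsupp.degree (m - Finsupp.single j 1) := rfl
    omega


/-- a polynomial of degree at most two without critical points has a constant nonzero
directional derivative -/
theorem exists_direction {n : ℕ} (f : MvPolynomial (Fin n) ℂ) (hdeg : f.totalDegree ≤ 2)
    (hcrit : ∀ a : Fin n → ℂ, ∃ j, aeval a (pderiv j f) ≠ (0:ℂ)) :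
    ∃ v : Fin n → ℂ, ∑ j, v j • pderiv j f = 1 := by
  by_contra hcon
  have hnot : (1 : MvPolynomial (Fin n) ℂ) ∉
      Submodule.span ℂ (Set.range fun j => pderiv j f) := by
    intro hmem
    rw [Submodule.mem_span_range_iff_exists_fun] at hmem
    exact hcon hmem
  obtain ⟨ℓ, hℓ1, hℓ⟩ := Submodule.exists_le_ker_of_notMem hnot
  have h1 : ((ℓ 1)⁻¹ • ℓ) 1 = 1 := by
    simp [hℓ1]
  obtain ⟨j, hj⟩ := hcrit (fun k => ((ℓ 1)⁻¹ • ℓ) (X k))
  apply hj
  rw [aeval_eq_eval, ← functional_pderiv _ h1 f hdeg j]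
  have hmem : pderiv j f ∈ Submodule.span ℂ (Set.range fun j => pderiv j f) :=
    Submodule.subset_span ⟨j, rfl⟩
  have h0 : ℓ (pderiv j f) = 0 := hℓ hmem
  simp [h0]

end Vale.Agent.Lib.P295
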